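import Vale.Agent.P080.Final

namespace Vale.Agent.Results.P080.A_full

open Vale.Agent.P080

theorem result : ∃ α C : ℝ, 0 < α ∧ 0 < C ∧
    ∀ (d : ℕ) (Ω : Set (EuclideanSpace ℝ (Fin d))) (u : EuclideanSpace ℝ (Fin d) → ℝ),
      IsOpen Ω → InfHarmonicOn u Ω →
      ContDiffOn ℝ 1 u Ω ∧
      ∀ (c : EuclideanSpace ℝ (Fin d)) (r M : ℝ), 0 < r → Metric.ball c r ⊆ Ω →
        (∀ p ∈ Metric.ball c r, ∀ q ∈ Metric.ball c r, u p - u q ≤ M) →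
        ∀ x ∈ Metric.ball c (r / 2), ∀ y ∈ Metric.ball c (r / 2),
          ‖gradient u x‖ ≤ C * M / r ∧
          ‖gradient u x - gradient u y‖ ≤ C * M / r ^ (1 + α) * ‖x - y‖ ^ α := by
  obtain ⟨α, C, hα, hC, H⟩ := final
  exact ⟨α, C, hα, hC, fun d Ω u hΩ hu => H _ u Ω hΩ hu⟩

end Vale.Agent.Results.P080.A_full
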